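import Crest.Agent.Lib.SnakyCert.Core

/-!
# Snaky: reflective checking of a table of claims (helper86)

A certificate is a table (`Trie`) of literal claims `(h, M, Z)`: `M`, `Z` are bit masks of cells
and `h` packs the budget `k`, the move and the kids.  `checkAll` is evaluated by the kernel.
-/

set_option autoImplicit false

namespace Crest.Agent.SnakyCert

open Crest.CombinatoricsR.PolyominoGame

/-- Zigzag enumeration of the integers: `0, 1, -1, 2, -2, …`.  Central cells get the low bits of
the masks (the kernel hashes a numeric literal through its low bits, so masks must differ there). -/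
def zig (a : ℕ) : ℤ := if a % 2 = 1 then ((a + 1) / 2 : ℕ) else -((a / 2 : ℕ) : ℤ)

theorem zig_inj {a b : ℕ} (h : zig a = zig b) : a = b := by
  unfold zig at h
  split_ifs at h <;> omega

/-- Cell of the bit index `i`: rows in zigzag order, columns `-13, …, 13`. -/
def cellOf (i : ℕ) : Cell := (zig (i / 27), ((i % 27 : ℕ) : ℤ) - 13)

theorem cellOf_inj {i j : ℕ} (h : cellOf i = cellOf j) : i = j := by
  simp only [cellOf, Prod.mk.injEq] at h
  have h1 := zig_inj h.1
  have h2 := h.2
  omega

/-- The set of cells of a mask. -/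
def maskSet (m : ℕ) : Set Cell := {c | ∃ i, m.testBit i = true ∧ c = cellOf i}

theorem cellOf_mem_iff {m i : ℕ} : cellOf i ∈ maskSet m ↔ m.testBit i = true := by
  constructor
  · rintro ⟨j, hj, he⟩
    rw [cellOf_inj he]; exact hj
  · intro h; exact ⟨i, h, rfl⟩

theorem maskSet_subset {a b : ℕ} (h : Nat.lor a b = b) : maskSet a ⊆ maskSet b := by
  rintro c ⟨i, hi, rfl⟩
  refine ⟨i, ?_, rfl⟩
  have : (a ||| b).testBit i = b.testBit i := by
    change (Nat.lor a b).testBit i = _
    rw [h]
  rw [Nat.testBit_or, hi] at this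
  simpa using this.symm

theorem maskSet_lor_bit {M m : ℕ} :
    maskSet (Nat.lor M (Nat.shiftLeft 1 m)) ⊆ maskSet M ∪ {cellOf m} := by
  rintro c ⟨i, hi, rfl⟩
  have h : (M ||| (1 <<< m)).testBit i = true := hi
  rw [Nat.testBit_or, Nat.one_shiftLeft, Nat.testBit_two_pow] at h
  rcases Bool.or_eq_true _ _ |>.mp h with h | h
  · exact Or.inl ⟨i, h, rfl⟩
  · have : m = i := by simpa using h
    subst this
    exact Or.inr rfl

theorem maskSet_sub_lor_bit {M m : ℕ} :
    maskSet M ∪ {cellOf m} ⊆ maskSet (Nat.lor M (Nat.shiftLeft 1 m)) := by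
  rintro c (⟨i, hi, rfl⟩ | hc)
  · refine ⟨i, ?_, rfl⟩
    change (M ||| (1 <<< m)).testBit i = true
    rw [Nat.testBit_or, hi]; rfl
  · rw [Set.mem_singleton_iff] at hc
    subst hc
    refine ⟨m, ?_, rfl⟩
    change (M ||| (1 <<< m)).testBit m = true
    rw [Nat.testBit_or, Nat.one_shiftLeft, Nat.testBit_two_pow]
    simp


/-- The table: a binary tree of buckets of 8 fixed-width records. -/
inductive Trie : Type
  | nil : Trie
  | leaf (b : ℕ) : Trie
  | node (l r : Trie) : Trie

/-- Record width. -/
def recW : ℕ := 2048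
/-- Mask of a record. -/
def recMask : ℕ := 2 ^ 2048 - 1
/-- Mask of a cell mask. -/
def cellMask : ℕ := 2 ^ 729 - 1

/-- The `off`-th record of a bucket.  The low 64 bits of a bucket are a salt: the kernel hashes a
numeric literal through its low bits, so the buckets must differ there. -/
def recAt (b off : ℕ) : ℕ := Nat.land (Nat.shiftRight b (Nat.add (Nat.mul off 2048) 64)) recMask
/-- Maker stones field of a record. -/
def recM (R : ℕ) : ℕ := Nat.land R cellMask
/-- Zone field of a record. -/
def recZ (R : ℕ) : ℕ := Nat.land (Nat.shiftRight R 729) cellMask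
/-- Header field of a record. -/
def recH (R : ℕ) : ℕ := Nat.shiftRight R 1458

namespace Trie

/-- Lookup of a bucket by the bits of its index, low bits first. -/
def get : Trie → ℕ → ℕ
  | nil, _ => 0
  | leaf b, _ => b
  | node l r, i => bif Nat.beq (Nat.mod i 2) 0 then get l (Nat.div i 2) else get r (Nat.div i 2)

/-- Membership of a bucket. -/
def HasB : Trie → ℕ → Prop
  | nil, _ => False
  | leaf b, a => a = b
  | node l r, a => HasB l a ∨ HasB r a

theorem hasB_of_get : ∀ (T : Trie) (i : ℕ), T.get i ≠ 0 → T.HasB (T.get i)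
  | nil, _, e => (e rfl).elim
  | leaf _, _, _ => rfl
  | node l r, i, e => by
    simp only [get] at e ⊢
    cases hb : Nat.beq (Nat.mod i 2) 0
    · rw [hb] at e
      simp only [cond_false] at e ⊢
      exact Or.inr (hasB_of_get r _ e)
    · rw [hb] at e
      simp only [cond_true] at e ⊢
      exact Or.inl (hasB_of_get l _ e)

end Trie

/-- Record of index `i` in the table. -/
def recOf (T : Trie) (i : ℕ) : ℕ := recAt (T.get (Nat.div i 8)) (Nat.mod i 8)

/-- Budget field. -/
def kOf (h : ℕ) : ℕ := Nat.mod h 256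
/-- Move field. -/
def mOf (h : ℕ) : ℕ := Nat.mod (Nat.div h 256) 65536
/-- Body field. -/
def bodyOf (h : ℕ) : ℕ := Nat.div h 16777216

/-- Bit test. -/
def bit (Z m : ℕ) : Bool := Nat.beq (Nat.land (Nat.shiftRight Z m) 1) 1

theorem bit_eq_testBit (Z m : ℕ) : bit Z m = Z.testBit m := by
  unfold bit
  have h : Nat.land (Nat.shiftRight Z m) 1 = (Z >>> m) &&& 1 := rfl
  rw [h, Nat.testBit, Nat.and_comm]
  cases h2 : (1 &&& (Z >>> m)) with
  | zero => simp; rfl
  | succ n =>
    have hlt : 1 &&& (Z >>> m) < 2 := Nat.lt_of_le_of_lt Nat.and_le_left (by norm_num)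
    have : n = 0 := by omega
    subst this
    simp

/-- The continuation of a long list of kids, stored in the body of the record `c - 1`. -/
def contCode (T : Trie) (c : ℕ) : ℕ := Nat.div (bodyOf (recH (recOf T (Nat.pred c)))) 2

/-- Check the list of kids of a step node.  The digit `262143` means that the list goes on in the
record given by the rest of the code. -/
def kidsOK (T : Trie) (k m M' Z : ℕ) : ℕ → ℕ → ℕ → Bool
  | 0, _, _ => false
  | fuel + 1, code, inter =>
    bif Nat.beq code 0 then Nat.beq inter 0 else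
    bif Nat.beq (Nat.mod code 262144) 262143 then
      kidsOK T k m M' Z fuel (contCode T (Nat.div code 262144)) inter
    else
      (let R := recOf T (Nat.pred (Nat.mod code 262144))
       Nat.ble 1 (kOf (recH R)) && Nat.ble (Nat.succ (kOf (recH R))) k &&
        (!(bit (recZ R) m)) && Nat.beq (Nat.lor (recZ R) Z) Z &&
        Nat.beq (Nat.lor (recM R) M') M' &&
        kidsOK T k m M' Z fuel (Nat.div code 262144) (Nat.land inter (recZ R)))

/-- `p` added to or subtracted from `a`. -/
def adj (s : Bool) (a p : ℕ) : ℕ := bif s then a + p else a - p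

/-- Zigzag position of `a - 13`. -/
def zigPos (a : ℕ) : ℕ := bif Nat.ble a 13 then 2 * (13 - a) else 2 * (a - 13) - 1

theorem zig_zigPos (a : ℕ) : zig (zigPos a) = (a : ℤ) - 13 := by
  unfold zig zigPos
  cases h : Nat.ble a 13
  · have h' : ¬ a ≤ 13 := by
      intro hc; have := Nat.ble_eq_true_of_le hc; rw [h] at this; exact Bool.noConfusion this
    simp only [cond_false]
    split_ifs <;> omega
  · have h' : a ≤ 13 := Nat.le_of_ble_eq_true h
    simp only [cond_true]
    split_ifs <;> omega

/-- One cell of a copy is in `X`. -/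
def cellChk (X a0 b0 : ℕ) (s1 s2 : Bool) (p1 p2 : ℕ) : Bool :=
  (s1 || Nat.ble p1 a0) && (s2 || Nat.ble p2 b0) && Nat.ble (adj s2 b0 p2 + 1) 27 &&
    bit X (zigPos (adj s1 a0 p1) * 27 + adj s2 b0 p2)

/-- The six cells of a copy at `(a0, b0)`, in the orientation `(s1, s2, sw)`, are in `X`. -/
def copyChk (X a0 b0 : ℕ) (s1 s2 sw : Bool) : Bool :=
  bif sw then
    cellChk X a0 b0 s1 s2 0 0 && cellChk X a0 b0 s1 s2 0 1 && cellChk X a0 b0 s1 s2 0 2 &&
    cellChk X a0 b0 s1 s2 0 3 && cellChk X a0 b0 s1 s2 1 3 && cellChk X a0 b0 s1 s2 1 4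
  else
    cellChk X a0 b0 s1 s2 0 0 && cellChk X a0 b0 s1 s2 1 0 && cellChk X a0 b0 s1 s2 2 0 &&
    cellChk X a0 b0 s1 s2 3 0 && cellChk X a0 b0 s1 s2 3 1 && cellChk X a0 b0 s1 s2 4 1

/-- Check one claim. -/
def checkRec (T : Trie) (R : ℕ) : Bool :=
  (let h := recH R
   let M := recM R
   let Z := recZ R
   bit Z (mOf h) &&
   bif Nat.beq (Nat.mod (bodyOf h) 2) 1 then
     (let w := Nat.div (bodyOf h) 2
      copyChk (Nat.lor M (Nat.shiftLeft 1 (mOf h))) (Nat.mod w 64) (Nat.mod (Nat.div w 64) 64)
        (bit w 12) (bit w 13) (bit w 14))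
   else
     kidsOK T (kOf h) (mOf h) (Nat.lor M (Nat.shiftLeft 1 (mOf h))) Z 64 (Nat.div (bodyOf h) 2) Z)

/-- Check the records of a bucket. -/
def checkB (T : Trie) (b : ℕ) : ℕ → Bool
  | 0 => true
  | n + 1 =>
    (bif Nat.beq (kOf (recH (recAt b n))) 0 then true else checkRec T (recAt b n)) && checkB T b n

/-- Check all claims of a subtable against the whole table. -/
def checkAll (whole : Trie) : Trie → Bool
  | Trie.nil => true
  | Trie.leaf b => checkB whole b 8
  | Trie.node l r => checkAll whole l && checkAll whole r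

/-- A record of the table with a positive budget. -/
def Has (T : Trie) (R : ℕ) : Prop := ∃ b n, T.HasB b ∧ n < 8 ∧ R = recAt b n ∧ 1 ≤ kOf (recH R)

theorem checkB_rec {T : Trie} {b : ℕ} : ∀ {fuel n : ℕ}, checkB T b fuel = true → n < fuel →
    1 ≤ kOf (recH (recAt b n)) → checkRec T (recAt b n) = true := by
  intro fuel
  induction fuel with
  | zero => intro n _ h; omega
  | succ fuel ih =>
    intro n hc hn hk
    simp only [checkB, Bool.and_eq_true] at hc
    rcases Nat.lt_succ_iff_lt_or_eq.mp hn with h | rfl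
    · exact ih hc.2 h hk
    · have h0 : Nat.beq (kOf (recH (recAt b n))) 0 = false := by
        cases h : Nat.beq (kOf (recH (recAt b n))) 0
        · rfl
        · have := Nat.eq_of_beq_eq_true h; omega
      rw [h0] at hc
      simpa using hc.1

theorem checkAll_has {whole : Trie} {b n : ℕ} (hn : n < 8) (hk : 1 ≤ kOf (recH (recAt b n)))
    (T : Trie) (hT : checkAll whole T = true) (hb : T.HasB b) :
    checkRec whole (recAt b n) = true := by
  induction T with
  | nil => exact hb.elim
  | leaf b' =>
    have h : b = b' := hb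
    subst h
    exact checkB_rec hT hn hk
  | node l r ihl ihr =>
    simp only [checkAll, Bool.and_eq_true] at hT
    rcases hb with e | e
    · exact ihl hT.1 e
    · exact ihr hT.2 e

theorem recOf_has {T : Trie} {i : ℕ} (hk : 1 ≤ kOf (recH (recOf T i))) : Has T (recOf T i) := by
  have hne : T.get (Nat.div i 8) ≠ 0 := by
    intro h0
    have : recOf T i = 0 := by
      unfold recOf recAt
      rw [h0]
      show ((0 >>> _) &&& recMask) = 0
      simp
    rw [this] at hk
    revert hk
    decide
  refine ⟨T.get (Nat.div i 8), Nat.mod i 8, Trie.hasB_of_get T _ hne, ?_, rfl, hk⟩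
  exact Nat.mod_lt _ (by norm_num)

/-- The good properties of a kid. -/
def KidGood (T : Trie) (k m M' Z R : ℕ) : Prop :=
  Has T R ∧ kOf (recH R) + 1 ≤ k ∧ (recZ R).testBit m = false ∧ Nat.lor (recZ R) Z = Z ∧
    Nat.lor (recM R) M' = M'

theorem kidsOK_sound (T : Trie) (k m M' Z : ℕ) : ∀ (fuel code inter : ℕ),
    kidsOK T k m M' Z fuel code inter = true → ∀ i, inter.testBit i = true →
      ∃ R, KidGood T k m M' Z R ∧ (recZ R).testBit i = false := by
  intro fuel
  induction fuel with
  | zero => intro code inter h; simp [kidsOK] at h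
  | succ fuel ih =>
    intro code inter hk i hi
    simp only [kidsOK] at hk
    cases hb : Nat.beq code 0
    · rw [hb] at hk
      simp only [cond_false] at hk
      cases hc : Nat.beq (Nat.mod code 262144) 262143
      swap
      · rw [hc] at hk
        simp only [cond_true] at hk
        exact ih _ _ hk i hi
      rw [hc] at hk
      simp only [cond_false, Bool.and_eq_true, Bool.not_eq_true'] at hk
      obtain ⟨⟨⟨⟨⟨h0, h1⟩, h2⟩, h3⟩, h4⟩, h5⟩ := hk
      rw [bit_eq_testBit] at h2
      have hgood : KidGood T k m M' Z (recOf T (Nat.pred (Nat.mod code 262144))) :=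
        ⟨recOf_has (Nat.le_of_ble_eq_true h0), Nat.le_of_ble_eq_true h1, h2,
          Nat.eq_of_beq_eq_true h3, Nat.eq_of_beq_eq_true h4⟩
      cases hz : (recZ (recOf T (Nat.pred (Nat.mod code 262144)))).testBit i
      · exact ⟨_, hgood, hz⟩
      · refine ih _ _ h5 i ?_
        change (inter &&& _).testBit i = true
        rw [Nat.testBit_and, hi, hz]; rfl
    · rw [hb] at hk
      simp only [cond_true] at hk
      have h0 : inter = 0 := Nat.eq_of_beq_eq_true hk
      subst h0
      simp at hi

theorem adj_cast {s : Bool} {a p : ℕ} (h : (s || Nat.ble p a) = true) :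
    ((adj s a p : ℕ) : ℤ) - 13 = ((a : ℤ) - 13) + (bif s then 1 else -1) * (p : ℤ) := by
  cases s
  · have h' : p ≤ a := by simpa using Nat.le_of_ble_eq_true (by simpa using h)
    simp only [adj, cond_false]
    omega
  · simp only [adj, cond_true]
    omega

theorem cellChk_sound {X a0 b0 : ℕ} {s1 s2 : Bool} {p1 p2 : ℕ}
    (h : cellChk X a0 b0 s1 s2 p1 p2 = true) :
    (((a0 : ℤ) - 13) + (bif s1 then 1 else -1) * (p1 : ℤ),
      ((b0 : ℤ) - 13) + (bif s2 then 1 else -1) * (p2 : ℤ)) ∈ maskSet X := by
  simp only [cellChk, Bool.and_eq_true] at h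
  obtain ⟨⟨⟨h1, h2⟩, h3⟩, h4⟩ := h
  have hb : adj s2 b0 p2 < 27 := Nat.le_of_ble_eq_true h3
  rw [bit_eq_testBit] at h4
  refine ⟨_, h4, ?_⟩
  have e1 : (zigPos (adj s1 a0 p1) * 27 + adj s2 b0 p2) / 27 = zigPos (adj s1 a0 p1) := by omega
  have e2 : (zigPos (adj s1 a0 p1) * 27 + adj s2 b0 p2) % 27 = adj s2 b0 p2 := by omega
  simp only [cellOf, e1, e2, zig_zigPos]
  rw [adj_cast h1, adj_cast h2]

theorem sign_ok (s : Bool) : ((bif s then 1 else -1 : ℤ) = 1 ∨ (bif s then 1 else -1 : ℤ) = -1) := by
  cases s <;> simp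

theorem copyChk_sound {X a0 b0 : ℕ} {s1 s2 sw : Bool} (h : copyChk X a0 b0 s1 s2 sw = true) :
    ContainsCopy (maskSet X) := by
  refine ⟨((a0 : ℤ) - 13, (b0 : ℤ) - 13), (bif s1 then 1 else -1), (bif s2 then 1 else -1),
    sign_ok s1, sign_ok s2, ?_⟩
  cases sw
  · left
    simp only [copyChk, cond_false, Bool.and_eq_true] at h
    obtain ⟨⟨⟨⟨⟨h1, h2⟩, h3⟩, h4⟩, h5⟩, h6⟩ := h
    intro p hp
    simp only [snaky, Finset.mem_insert, Finset.mem_singleton] at hp
    rcases hp with rfl | rfl | rfl | rfl | rfl | rfl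
    · simpa using cellChk_sound h1
    · simpa using cellChk_sound h2
    · simpa using cellChk_sound h3
    · simpa using cellChk_sound h4
    · simpa using cellChk_sound h5
    · simpa using cellChk_sound h6
  · right
    simp only [copyChk, cond_true, Bool.and_eq_true] at h
    obtain ⟨⟨⟨⟨⟨h1, h2⟩, h3⟩, h4⟩, h5⟩, h6⟩ := h
    intro p hp
    simp only [snaky, Finset.mem_insert, Finset.mem_singleton] at hp
    rcases hp with rfl | rfl | rfl | rfl | rfl | rfl
    · simpa using cellChk_sound h1
    · simpa using cellChk_sound h2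
    · simpa using cellChk_sound h3
    · simpa using cellChk_sound h4
    · simpa using cellChk_sound h5
    · simpa using cellChk_sound h6

/-- Soundness: every claim of a checked table holds. -/
theorem table_sound {T : Trie} (hT : checkAll T T = true) :
    ∀ (n R : ℕ), Has T R → kOf (recH R) = n → W n (maskSet (recM R)) (maskSet (recZ R)) := by
  intro n
  induction n using Nat.strong_induction_on with
  | _ n ih =>
    rintro R ⟨b, off, hb0, hoff, rfl, hk1⟩ hk
    have hc := checkAll_has hoff hk1 T hT hb0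
    generalize hRdef : recAt b off = R at *
    simp only [checkRec, Bool.and_eq_true] at hc
    obtain ⟨hm, hc⟩ := hc
    rw [bit_eq_testBit] at hm
    have hmZ : cellOf (mOf (recH R)) ∈ maskSet (recZ R) := cellOf_mem_iff.mpr hm
    cases hb : Nat.beq (Nat.mod (bodyOf (recH R)) 2) 1
    · rw [hb] at hc
      simp only [cond_false] at hc
      -- a step node
      have hkids := kidsOK_sound T _ _ _ _ _ _ _ hc
      obtain ⟨n', rfl⟩ : ∃ n', n = n' + 1 := ⟨n - 1, by omega⟩
      refine Or.inr ⟨cellOf (mOf (recH R)), hmZ, fun r => ?_⟩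
      -- the kid for the reply `r`
      have key : ∃ R', KidGood T (kOf (recH R)) (mOf (recH R))
          (Nat.lor (recM R) (Nat.shiftLeft 1 (mOf (recH R)))) (recZ R) R' ∧
          r ∉ maskSet (recZ R') := by
        by_cases hr : ∃ i, r = cellOf i
        · obtain ⟨i, rfl⟩ := hr
          by_cases hi : (recZ R).testBit i = true
          · obtain ⟨R', hg, hz⟩ := hkids i hi
            refine ⟨R', hg, ?_⟩
            rw [cellOf_mem_iff, hz]; simp
          · obtain ⟨R', hg, hz⟩ := hkids (mOf (recH R)) hm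
            refine ⟨R', hg, fun hmem => hi ?_⟩
            obtain ⟨j, hj, he⟩ := maskSet_subset hg.2.2.2.1 hmem
            rw [cellOf_inj he]; exact hj
        · obtain ⟨R', hg, _⟩ := hkids (mOf (recH R)) hm
          refine ⟨R', hg, ?_⟩
          rintro ⟨i, _, he⟩
          exact hr ⟨i, he⟩
      obtain ⟨R', ⟨hHas', hk', hzm, hsub, hsubM⟩, hr⟩ := key
      refine ⟨maskSet (recM R'), maskSet (recZ R'), ?_, hr, ?_, maskSet_subset hsub, ?_⟩
      · have hlt : kOf (recH R') < n' + 1 := by omega
        have := ih (kOf (recH R')) hlt R' hHas' rfl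
        exact W.mono (by omega) this
      · rw [cellOf_mem_iff, hzm]; simp
      · exact (maskSet_subset hsubM).trans maskSet_lor_bit
    · rw [hb] at hc
      simp only [cond_true] at hc
      obtain ⟨n', rfl⟩ : ∃ n', n = n' + 1 := ⟨n - 1, by omega⟩
      refine Or.inl ⟨cellOf (mOf (recH R)), hmZ, ?_⟩
      exact containsCopy_mono maskSet_lor_bit (copyChk_sound hc)

end Crest.Agent.SnakyCert
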