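import Crest.Statements.S0047

/-!
# Snaky: game semantics of certificates (helper86)

`W k M Z`: Maker owning the cells of `M`, with the cells of `Z` unclaimed, can force a copy of
Snaky within `k` further claims.  From `W 21 ∅ Z` with `Z` bounded we build a policy for the
statement: the policy plays the certified moves until a copy is complete, then fresh far cells.
-/

set_option autoImplicit false

namespace Crest.Agent.SnakyCert

open Crest.CombinatoricsR.PolyominoGame

abbrev Cell := ℤ × ℤ

/-- The claim: Maker owning `M`, with `Z` unclaimed, forces a copy within `k` claims. -/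
def W : ℕ → Set Cell → Set Cell → Prop
  | 0, _, _ => False
  | k + 1, M, Z =>
    (∃ c ∈ Z, ContainsCopy (M ∪ {c})) ∨
    ∃ m ∈ Z, ∀ r : Cell, ∃ M' Z', W k M' Z' ∧ r ∉ Z' ∧ m ∉ Z' ∧ Z' ⊆ Z ∧ M' ⊆ M ∪ {m}

theorem containsCopy_mono {X Y : Set Cell} (h : X ⊆ Y) (hX : ContainsCopy X) : ContainsCopy Y := by
  obtain ⟨t, e1, e2, h1, h2, h3⟩ := hX
  refine ⟨t, e1, e2, h1, h2, ?_⟩
  rcases h3 with h3 | h3
  · exact Or.inl fun p hp => h (h3 p hp)
  · exact Or.inr fun p hp => h (h3 p hp)

theorem W.succ : ∀ {k : ℕ} {M Z : Set Cell}, W k M Z → W (k + 1) M Z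
  | 0, _, _, h => h.elim
  | k + 1, M, Z, h => by
    rcases h with h | ⟨m, hm, hr⟩
    · exact Or.inl h
    · refine Or.inr ⟨m, hm, fun r => ?_⟩
      obtain ⟨M', Z', h1, h2⟩ := hr r
      exact ⟨M', Z', W.succ h1, h2⟩

theorem W.mono {a b : ℕ} {M Z : Set Cell} (hab : a ≤ b) (h : W a M Z) : W b M Z := by
  induction hab with
  | refl => exact h
  | step _ ih => exact W.succ ih

/-- The list of the first `n` replies. -/
abbrev pre (b : ℕ → Cell) (n : ℕ) : List Cell := (List.range n).map b

theorem pre_succ' (b : ℕ → Cell) (n : ℕ) :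
    pre b (n + 1) = b 0 :: pre (fun i => b (i + 1)) n := by
  simp only [pre, List.range_succ_eq_map, List.map_cons, List.map_map]
  rfl

theorem pre_succ (b : ℕ → Cell) (n : ℕ) : pre b (n + 1) = pre b n ++ [b n] := by
  simp [pre, List.range_succ]

/-- Strategy extraction. -/
theorem W.strategy : ∀ (k : ℕ) (M Z : Set Cell), W k M Z →
    ∃ τ : List Cell → Cell, ∀ b : ℕ → Cell, ∃ j, j < k ∧
      (∀ i ≤ j, τ (pre b i) ∈ Z) ∧
      (∀ i ≤ j, ∀ l < i, τ (pre b i) ≠ τ (pre b l)) ∧
      (∀ i ≤ j, ∀ l < i, τ (pre b i) ≠ b l) ∧
      ContainsCopy (M ∪ {c | ∃ i ≤ j, c = τ (pre b i)}) := by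
  intro k
  induction k with
  | zero => intro M Z h; exact h.elim
  | succ k ih =>
    intro M Z h
    rcases h with ⟨c, hc, hcopy⟩ | ⟨m, hm, hr⟩
    · refine ⟨fun _ => c, fun b => ⟨0, Nat.succ_pos _, ?_, ?_, ?_, ?_⟩⟩
      · intro i _; exact hc
      · intro i hi l hl; omega
      · intro i hi l hl; omega
      · refine containsCopy_mono ?_ hcopy
        intro x hx
        rcases hx with hx | hx
        · exact Or.inl hx
        · exact Or.inr ⟨0, le_refl _, hx⟩
    · choose M' Z' h1 h2 h3 h4 h5 using hr
      choose τ' hτ' using fun r => ih (M' r) (Z' r) (h1 r)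
      let τ : List Cell → Cell := fun h =>
        match h with
        | [] => m
        | r :: t => τ' r t
      have hτ0 : ∀ b : ℕ → Cell, τ (pre b 0) = m := fun b => rfl
      have hτs : ∀ (b : ℕ → Cell) (i : ℕ),
          τ (pre b (i + 1)) = τ' (b 0) (pre (fun i => b (i + 1)) i) := by
        intro b i
        rw [pre_succ']
      refine ⟨τ, fun b => ?_⟩
      obtain ⟨j, hj, hZ, hd1, hd2, hcopy⟩ := hτ' (b 0) (fun i => b (i + 1))
      refine ⟨j + 1, by omega, ?_, ?_, ?_, ?_⟩
      · intro i hi
        cases i with
        | zero => rw [hτ0]; exact hm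
        | succ i =>
          rw [hτs]
          exact h4 _ (hZ i (by omega))
      · intro i hi l hl
        cases i with
        | zero => omega
        | succ i =>
          rw [hτs]
          cases l with
          | zero =>
            rw [hτ0]
            intro he
            have hz := hZ i (by omega)
            rw [he] at hz
            exact h3 (b 0) hz
          | succ l =>
            rw [hτs]
            exact hd1 i (by omega) l (by omega)
      · intro i hi l hl
        cases i with
        | zero => omega
        | succ i =>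
          rw [hτs]
          cases l with
          | zero =>
            intro he
            have hz := hZ i (by omega)
            rw [he] at hz
            exact h2 (b 0) hz
          | succ l =>
            exact hd2 i (by omega) l (by omega)
      · refine containsCopy_mono ?_ hcopy
        intro x hx
        rcases hx with hx | ⟨i, hi, hx⟩
        · rcases h5 (b 0) hx with hx | hx
          · exact Or.inl hx
          · exact Or.inr ⟨0, by omega, by rw [hτ0]; exact hx⟩
        · refine Or.inr ⟨i + 1, by omega, ?_⟩
          rw [hτs]; exact hx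

open Classical in
/-- The padded policy: certified moves until a copy is complete, then fresh far cells. -/
noncomputable def pad (τ : List Cell → Cell) (h : List Cell) : Cell :=
  if ContainsCopy {c | ∃ i < h.length, c = τ (h.take i)} then
    ((100 : ℤ) + h.length + (h.map fun r => |r.1|).sum, 0)
  else τ h

theorem take_pre (b : ℕ → Cell) {n i : ℕ} (h : i ≤ n) : (pre b n).take i = pre b i := by
  apply List.ext_getElem
  · simp [pre]; omega
  · intro k h1 h2
    simp only [pre, List.length_take, List.length_map, List.length_range] at h1 h2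
    simp [pre]

/-- Sum of the absolute first coordinates of the first `n` replies. -/
abbrev sumAbs (b : ℕ → Cell) (n : ℕ) : ℤ := ((pre b n).map fun r => |r.1|).sum

theorem sumAbs_succ (b : ℕ → Cell) (n : ℕ) : sumAbs b (n + 1) = sumAbs b n + |(b n).1| := by
  simp [sumAbs, pre_succ]

theorem sumAbs_nonneg (b : ℕ → Cell) (n : ℕ) : 0 ≤ sumAbs b n := by
  induction n with
  | zero => simp [sumAbs, pre]
  | succ n ih => rw [sumAbs_succ]; have := abs_nonneg (b n).1; omega

theorem sumAbs_mono (b : ℕ → Cell) {l n : ℕ} (h : l ≤ n) : sumAbs b l ≤ sumAbs b n := by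
  induction h with
  | refl => exact le_refl _
  | step _ ih => rw [sumAbs_succ]; have := abs_nonneg (b ‹_›).1; omega

theorem abs_le_sumAbs (b : ℕ → Cell) {l n : ℕ} (h : l < n) : |(b l).1| ≤ sumAbs b n := by
  have h1 := sumAbs_mono b (Nat.succ_le_of_lt h)
  rw [sumAbs_succ] at h1
  have := sumAbs_nonneg b l
  omega

/-- The statement of S0047, from a certified claim. -/
theorem main_of_W {Z : Set Cell} (hW : W 21 ∅ Z) (hbox : ∀ c ∈ Z, c.1 < 100) :
    ∃ σ : List (ℤ × ℤ) → ℤ × ℤ, ∀ b : ℕ → ℤ × ℤ,
      (∀ k : ℕ, k < 20 →
        (∀ j : ℕ, j ≤ k → b k ≠ Crest.CombinatoricsR.PolyominoGame.makerClaim σ b j) ∧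
        (∀ j : ℕ, j < k → b k ≠ b j)) →
      (∀ k : ℕ, k ≤ 20 →
        (∀ j : ℕ, j < k → Crest.CombinatoricsR.PolyominoGame.makerClaim σ b k ≠
          Crest.CombinatoricsR.PolyominoGame.makerClaim σ b j) ∧
        (∀ j : ℕ, j < k → Crest.CombinatoricsR.PolyominoGame.makerClaim σ b k ≠ b j)) ∧
      Crest.CombinatoricsR.PolyominoGame.ContainsCopy
        {c | ∃ j : ℕ, j ≤ 20 ∧ c = Crest.CombinatoricsR.PolyominoGame.makerClaim σ b j} := by
  obtain ⟨τ, hτ⟩ := W.strategy 21 ∅ Z hW
  refine ⟨pad τ, fun b _ => ?_⟩
  obtain ⟨j, hj, hZ, hd1, hd2, hcopy⟩ := hτ b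
  -- the "won" predicate
  let won : ℕ → Prop := fun n => ContainsCopy {c | ∃ i < n, c = τ (pre b i)}
  have hwon_mono : ∀ {a c : ℕ}, a ≤ c → won a → won c := by
    intro a c hac h
    refine containsCopy_mono ?_ h
    rintro x ⟨i, hi, hx⟩
    exact ⟨i, by omega, hx⟩
  have hclaim : ∀ n, makerClaim (pad τ) b n =
      (open Classical in
        if won n then ((100 : ℤ) + n + sumAbs b n, (0 : ℤ)) else τ (pre b n)) := by
    intro n
    have hset : {c | ∃ i < (pre b n).length, c = τ ((pre b n).take i)} =
        {c | ∃ i < n, c = τ (pre b i)} := by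
      ext x
      constructor
      · rintro ⟨i, hi, hx⟩
        have hi' : i < n := by simpa [pre] using hi
        exact ⟨i, hi', by rw [hx, take_pre b hi'.le]⟩
      · rintro ⟨i, hi, hx⟩
        exact ⟨i, by simpa [pre] using hi, by rw [hx, take_pre b hi.le]⟩
    have hlen : ((pre b n).length : ℤ) = n := by simp [pre]
    unfold makerClaim pad
    change (open Classical in
      if ContainsCopy {c | ∃ i < (pre b n).length, c = τ ((pre b n).take i)} then _ else _) = _
    rw [hset, hlen]
  have hwon_end : won (j + 1) := by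
    refine containsCopy_mono ?_ hcopy
    rintro x (hx | ⟨i, hi, hx⟩)
    · exact hx.elim
    · exact ⟨i, by omega, hx⟩
  have hnot : ∀ n, ¬ won n → makerClaim (pad τ) b n = τ (pre b n) := by
    intro n hn
    rw [hclaim, if_neg hn]
  have hyes : ∀ n, won n → makerClaim (pad τ) b n = ((100 : ℤ) + n + sumAbs b n, (0 : ℤ)) := by
    intro n hn
    rw [hclaim, if_pos hn]
  have hle : ∀ n, ¬ won n → n ≤ j := by
    intro n hn
    by_contra hc
    exact hn (hwon_mono (by omega) hwon_end)
  constructor
  · intro k _
    constructor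
    · intro l hl
      by_cases hk : won k
      · rw [hyes k hk]
        by_cases hl' : won l
        · rw [hyes l hl']
          intro he
          have h1 := congrArg Prod.fst he
          simp only at h1
          have := sumAbs_mono b hl.le
          omega
        · rw [hnot l hl']
          intro he
          have h1 := hbox _ (hZ l (hle l hl'))
          rw [← he] at h1
          simp only at h1
          have := sumAbs_nonneg b k
          omega
      · have hl' : ¬ won l := fun h => hk (hwon_mono hl.le h)
        rw [hnot k hk, hnot l hl']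
        exact hd1 k (hle k hk) l hl
    · intro l hl
      by_cases hk : won k
      · rw [hyes k hk]
        intro he
        have h1 := abs_le_sumAbs b hl
        rw [← he] at h1
        simp only at h1
        have h2 := le_abs_self ((100 : ℤ) + k + sumAbs b k)
        omega
      · rw [hnot k hk]
        exact hd2 k (hle k hk) l hl
  · classical
    have hex : ∃ n, won n := ⟨j + 1, hwon_end⟩
    have hfind := Nat.find_spec hex
    have hmin := fun m (hm : m < Nat.find hex) => Nat.find_min hex hm
    have hfle : Nat.find hex ≤ j + 1 := Nat.find_min' hex hwon_end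
    refine containsCopy_mono ?_ hfind
    rintro x ⟨i, hi, hx⟩
    refine ⟨i, by omega, ?_⟩
    rw [hnot i (hmin i hi)]
    exact hx

end Crest.Agent.SnakyCert
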