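import Crest.Agent.Lib.SnakyCert.Sym

/-!
# Snaky: the root of the certificate (helper86)

Maker's first claim is the origin; each reply of Breaker is answered by a record of the table,
possibly moved by one of the eight symmetries (which fix the origin).
-/

set_option autoImplicit false

namespace Crest.Agent.SnakyCert

open Crest.CombinatoricsR.PolyominoGame

/-- Image of the zone of a root kid `(record index, symmetry code)`. -/
def kidZ (T : Trie) (p : ℕ × ℕ) : ℕ :=
  imgMask (bit p.2 0) (bit p.2 1) (bit p.2 2) (recZ (recOf T p.1))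

/-- Union of the zones and the origin bit. -/
def rootU (T : Trie) (kids : List (ℕ × ℕ)) : ℕ :=
  kids.foldr (fun p acc => Nat.lor (kidZ T p) acc) 8192

/-- Intersection of the zones. -/
def rootI (T : Trie) (kids : List (ℕ × ℕ)) (U : ℕ) : ℕ :=
  kids.foldr (fun p acc => Nat.land (kidZ T p) acc) U

/-- Conditions on one root kid. -/
def kidOK (T : Trie) (p : ℕ × ℕ) : Bool :=
  Nat.ble 1 (kOf (recH (recOf T p.1))) && Nat.ble (kOf (recH (recOf T p.1))) 20 &&
    Nat.beq (Nat.lor (recM (recOf T p.1)) 8192) 8192 &&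
    Nat.ble (recZ (recOf T p.1) + 1) (2 ^ 729) && (!(bit (kidZ T p) 13))

/-- The root check. -/
def rootChk (T : Trie) (kids : List (ℕ × ℕ)) : Bool :=
  (!kids.isEmpty) && kids.all (kidOK T) && Nat.ble (rootU T kids + 1) (2 ^ 729) &&
    Nat.beq (rootI T kids (rootU T kids)) 0

theorem cellOf_ten : cellOf 13 = (0, 0) := by
  decide

theorem maskSet_origin {a : ℕ} (h : Nat.lor a 8192 = 8192) : maskSet a ⊆ {((0 : ℤ), (0 : ℤ))} := by
  intro c hc
  obtain ⟨i, hi, rfl⟩ := maskSet_subset h hc
  have h10 : (8192 : ℕ) = 2 ^ 13 := by norm_num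
  rw [h10, Nat.testBit_two_pow] at hi
  have : 13 = i := by simpa using hi
  subst this
  exact cellOf_ten

theorem testBit_rootU {T : Trie} {kids : List (ℕ × ℕ)} {p : ℕ × ℕ} {j : ℕ} (hp : p ∈ kids)
    (h : (kidZ T p).testBit j = true) : (rootU T kids).testBit j = true := by
  unfold rootU
  induction kids with
  | nil => simp at hp
  | cons q t ih =>
    simp only [List.foldr_cons]
    change (kidZ T q ||| _).testBit j = true
    rw [Nat.testBit_or]
    rcases List.mem_cons.mp hp with rfl | hp
    · rw [h]; rfl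
    · rw [ih hp]; simp

theorem testBit_rootI {T : Trie} {U j : ℕ} : ∀ {kids : List (ℕ × ℕ)}, U.testBit j = true →
    (∀ p ∈ kids, (kidZ T p).testBit j = true) → (rootI T kids U).testBit j = true := by
  intro kids hU h
  unfold rootI
  induction kids with
  | nil => exact hU
  | cons q t ih =>
    simp only [List.foldr_cons]
    change (kidZ T q &&& _).testBit j = true
    rw [Nat.testBit_and, h q (List.mem_cons_self ..),
      ih fun p hp => h p (List.mem_cons_of_mem _ hp)]
    rfl

theorem bit10_rootU (T : Trie) (kids : List (ℕ × ℕ)) : (rootU T kids).testBit 13 = true := by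
  unfold rootU
  induction kids with
  | nil =>
    show (8192 : ℕ).testBit 13 = true
    decide
  | cons q t ih =>
    simp only [List.foldr_cons]
    change (kidZ T q ||| _).testBit 13 = true
    rw [Nat.testBit_or, ih]
    simp

theorem root_W {T : Trie} (hT : checkAll T T = true) {kids : List (ℕ × ℕ)}
    (h : rootChk T kids = true) : ∃ Z, W 21 ∅ Z ∧ ∀ c ∈ Z, c.1 < 100 := by
  simp only [rootChk, Bool.and_eq_true, Bool.not_eq_true', List.isEmpty_eq_false_iff,
    List.all_eq_true] at h
  obtain ⟨⟨⟨hne, hall⟩, hU⟩, hI⟩ := h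
  have hU' : rootU T kids < 2 ^ 729 := Nat.le_of_ble_eq_true hU
  have hI' : rootI T kids (rootU T kids) = 0 := Nat.eq_of_beq_eq_true hI
  obtain ⟨p0, hp0⟩ := List.exists_mem_of_ne_nil kids hne
  -- the kid for a bit
  have hpick : ∀ j, ∃ p ∈ kids, (kidZ T p).testBit j = false := by
    intro j
    by_contra hc
    have hall' : ∀ p ∈ kids, (kidZ T p).testBit j = true := fun p hp => by
      by_contra hq
      exact hc ⟨p, hp, by simpa using hq⟩
    have h1 := testBit_rootI (T := T) (testBit_rootU hp0 (hall' p0 hp0)) hall'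
    rw [hI'] at h1
    simp at h1
  have hm : ((0 : ℤ), (0 : ℤ)) ∈ maskSet (rootU T kids) :=
    ⟨13, bit10_rootU T kids, cellOf_ten.symm⟩
  refine ⟨maskSet (rootU T kids), ?_, ?_⟩
  · -- the step at the origin
    refine Or.inr ⟨(0, 0), hm, fun r => ?_⟩
    -- the kid for the reply `r`
    have key : ∃ p ∈ kids, r ∉ maskSet (kidZ T p) := by
      by_cases hr : ∃ j, r = cellOf j
      · obtain ⟨j, rfl⟩ := hr
        obtain ⟨p, hp, hz⟩ := hpick j
        refine ⟨p, hp, ?_⟩
        rw [cellOf_mem_iff, hz]; simp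
      · refine ⟨p0, hp0, ?_⟩
        rintro ⟨i, _, he⟩
        exact hr ⟨i, he⟩
    obtain ⟨p, hp, hr⟩ := key
    have hk := hall p hp
    simp only [kidOK, Bool.and_eq_true, Bool.not_eq_true'] at hk
    obtain ⟨⟨⟨⟨hk1, hk2⟩, hk3⟩, hk4⟩, hk5⟩ := hk
    have hk1' : 1 ≤ kOf (recH (recOf T p.1)) := Nat.le_of_ble_eq_true hk1
    have hk2' : kOf (recH (recOf T p.1)) ≤ 20 := Nat.le_of_ble_eq_true hk2
    have hk3' := Nat.eq_of_beq_eq_true hk3
    have hk4' : recZ (recOf T p.1) < 2 ^ 729 := Nat.le_of_ble_eq_true hk4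
    rw [bit_eq_testBit] at hk5
    have hW := table_sound hT _ _ (recOf_has hk1') rfl
    have hsub := image_maskSet_subset (bit p.2 0) (bit p.2 1) (bit p.2 2) hk4'
    refine ⟨gMap (bit p.2 0) (bit p.2 1) (bit p.2 2) '' maskSet (recM (recOf T p.1)),
      gMap (bit p.2 0) (bit p.2 1) (bit p.2 2) '' maskSet (recZ (recOf T p.1)),
      W.mono hk2' (W.image _ _ _ _ _ _ hW), fun hc => hr (hsub hc), fun hc => ?_, ?_, ?_⟩
    · have := hsub hc
      rw [← cellOf_ten, cellOf_mem_iff] at this
      have h2 : (kidZ T p).testBit 13 = true := this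
      rw [hk5] at h2
      exact Bool.noConfusion h2
    · intro x hx
      obtain ⟨i, hi, rfl⟩ := hsub hx
      exact ⟨i, testBit_rootU hp hi, rfl⟩
    · rintro _ ⟨x, hx, rfl⟩
      have hx0 : x = (0, 0) := maskSet_origin hk3' hx
      rw [hx0, gMap_origin]
      exact Or.inr rfl
  · rintro c ⟨i, hi, rfl⟩
    have hlt := testBit_lt hU' hi
    have h21 : i / 27 < 27 := by omega
    simp only [cellOf, zig]
    split_ifs <;> omega

end Crest.Agent.SnakyCert
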