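import Crest.Agent.Lib.SnakyCert.Check

/-!
# Snaky: the eight symmetries of the board act on claims (helper86)
-/

set_option autoImplicit false

namespace Crest.Agent.SnakyCert

open Crest.CombinatoricsR.PolyominoGame

/-- A signed coordinate permutation. -/
def gMap (s1 s2 sw : Bool) (c : Cell) : Cell :=
  if sw then ((if s1 then -c.2 else c.2), (if s2 then -c.1 else c.1))
  else ((if s1 then -c.1 else c.1), (if s2 then -c.2 else c.2))

theorem gMap_inj (s1 s2 sw : Bool) : Function.Injective (gMap s1 s2 sw) := by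
  rintro ⟨a, b⟩ ⟨c, d⟩ h
  cases s1 <;> cases s2 <;> cases sw <;> simp [gMap] at h ⊢ <;> omega

theorem gMap_surj (s1 s2 sw : Bool) : Function.Surjective (gMap s1 s2 sw) := by
  rintro ⟨a, b⟩
  cases s1 <;> cases s2 <;> cases sw
  · exact ⟨(a, b), by simp [gMap]⟩
  · exact ⟨(b, a), by simp [gMap]⟩
  · exact ⟨(a, -b), by simp [gMap]⟩
  · exact ⟨(-b, a), by simp [gMap]⟩
  · exact ⟨(-a, b), by simp [gMap]⟩
  · exact ⟨(b, -a), by simp [gMap]⟩
  · exact ⟨(-a, -b), by simp [gMap]⟩
  · exact ⟨(-b, -a), by simp [gMap]⟩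

theorem gMap_origin (s1 s2 sw : Bool) : gMap s1 s2 sw (0, 0) = (0, 0) := by
  cases s1 <;> cases s2 <;> cases sw <;> simp [gMap]

/-- The sign of a Boolean. -/
def sg (s : Bool) : ℤ := if s then -1 else 1

theorem sg_ok (s : Bool) {e : ℤ} (he : e = 1 ∨ e = -1) : sg s * e = 1 ∨ sg s * e = -1 := by
  cases s <;> rcases he with rfl | rfl <;> simp [sg]

theorem gMap_eq (s1 s2 sw : Bool) (c : Cell) : gMap s1 s2 sw c =
    if sw then (sg s1 * c.2, sg s2 * c.1) else (sg s1 * c.1, sg s2 * c.2) := by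
  cases s1 <;> cases s2 <;> cases sw <;> simp [gMap, sg]

theorem containsCopy_image (s1 s2 sw : Bool) {X : Set Cell} (h : ContainsCopy X) :
    ContainsCopy (gMap s1 s2 sw '' X) := by
  obtain ⟨t, e1, e2, h1, h2, h3⟩ := h
  cases sw
  · refine ⟨(sg s1 * t.1, sg s2 * t.2), sg s1 * e1, sg s2 * e2, sg_ok s1 h1, sg_ok s2 h2, ?_⟩
    rcases h3 with h3 | h3
    · refine Or.inl fun p hp => ⟨_, h3 p hp, ?_⟩
      rw [gMap_eq]; simp only [Bool.false_eq_true, if_false]; ext <;> simp <;> ring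
    · refine Or.inr fun p hp => ⟨_, h3 p hp, ?_⟩
      rw [gMap_eq]; simp only [Bool.false_eq_true, if_false]; ext <;> simp <;> ring
  · refine ⟨(sg s1 * t.2, sg s2 * t.1), sg s1 * e2, sg s2 * e1, sg_ok s1 h2, sg_ok s2 h1, ?_⟩
    rcases h3 with h3 | h3
    · refine Or.inr fun p hp => ⟨_, h3 p hp, ?_⟩
      rw [gMap_eq]; simp only [if_true]; ext <;> simp <;> ring
    · refine Or.inl fun p hp => ⟨_, h3 p hp, ?_⟩
      rw [gMap_eq]; simp only [if_true]; ext <;> simp <;> ring

/-- Claims are invariant under the symmetries. -/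
theorem W.image (s1 s2 sw : Bool) : ∀ (k : ℕ) (M Z : Set Cell), W k M Z →
    W k (gMap s1 s2 sw '' M) (gMap s1 s2 sw '' Z) := by
  intro k
  induction k with
  | zero => intro M Z h; exact h.elim
  | succ k ih =>
    intro M Z h
    rcases h with ⟨c, hc, hcopy⟩ | ⟨m, hm, hr⟩
    · refine Or.inl ⟨_, ⟨c, hc, rfl⟩, ?_⟩
      have := containsCopy_image s1 s2 sw hcopy
      rw [Set.image_union, Set.image_singleton] at this
      exact this
    · refine Or.inr ⟨_, ⟨m, hm, rfl⟩, fun r => ?_⟩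
      obtain ⟨r', rfl⟩ := gMap_surj s1 s2 sw r
      obtain ⟨M', Z', h1, h2, h3, h4, h5⟩ := hr r'
      refine ⟨_, _, ih M' Z' h1, ?_, ?_, Set.image_mono h4, ?_⟩
      · rintro ⟨x, hx, he⟩
        rw [gMap_inj s1 s2 sw he] at hx
        exact h2 hx
      · rintro ⟨x, hx, he⟩
        rw [gMap_inj s1 s2 sw he] at hx
        exact h3 hx
      · have := Set.image_mono (f := gMap s1 s2 sw) h5
        rw [Set.image_union, Set.image_singleton] at this
        exact this

/-- Inverse of the zigzag position. -/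
def unzig (a : ℕ) : ℕ := bif Nat.beq (Nat.mod a 2) 1 then 13 + (a + 1) / 2 else 13 - a / 2

/-- Action of a symmetry on bit indices of the window. -/
def gIdx (s1 s2 sw : Bool) (i : ℕ) : ℕ :=
  let x0 := unzig (i / 27)
  let y0 := i % 27
  let u := bif sw then y0 else x0
  let v := bif sw then x0 else y0
  zigPos (bif s1 then 26 - u else u) * 27 + (bif s2 then 26 - v else v)

/-- The action on indices computes the action on cells. -/
theorem gIdx_ok : ∀ s1 s2 sw : Bool, ∀ i : Fin 729,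
    gMap s1 s2 sw (cellOf i) = cellOf (gIdx s1 s2 sw i) := by
  decide +kernel

/-- The image of a mask. -/
def imgGo (s1 s2 sw : Bool) (Z : ℕ) : ℕ → ℕ → ℕ
  | 0, acc => acc
  | n + 1, acc =>
    imgGo s1 s2 sw Z n (bif bit Z n then Nat.lor acc (Nat.shiftLeft 1 (gIdx s1 s2 sw n)) else acc)

theorem imgGo_mono (s1 s2 sw : Bool) (Z : ℕ) : ∀ (n acc j : ℕ), acc.testBit j = true →
    (imgGo s1 s2 sw Z n acc).testBit j = true := by
  intro n
  induction n with
  | zero => intro acc j h; exact h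
  | succ n ih =>
    intro acc j h
    simp only [imgGo]
    apply ih
    cases hb : bit Z n
    · simpa using h
    · simp only [cond_true]
      change (acc ||| (1 <<< _)).testBit j = true
      rw [Nat.testBit_or, h]; rfl

theorem imgGo_spec (s1 s2 sw : Bool) (Z : ℕ) : ∀ (n acc i : ℕ), i < n → Z.testBit i = true →
    (imgGo s1 s2 sw Z n acc).testBit (gIdx s1 s2 sw i) = true := by
  intro n
  induction n with
  | zero => intro acc i h; omega
  | succ n ih =>
    intro acc i hi hz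
    simp only [imgGo]
    rcases Nat.lt_succ_iff_lt_or_eq.mp hi with h | rfl
    · exact ih _ i h hz
    · apply imgGo_mono
      rw [bit_eq_testBit, hz]
      simp only [cond_true]
      change (acc ||| (1 <<< _)).testBit _ = true
      rw [Nat.testBit_or, Nat.one_shiftLeft, Nat.testBit_two_pow]
      simp

/-- The image of a mask inside the window. -/
def imgMask (s1 s2 sw : Bool) (Z : ℕ) : ℕ := imgGo s1 s2 sw Z 729 0

theorem testBit_lt {U i : ℕ} (hU : U < 2 ^ 729) (h : U.testBit i = true) : i < 729 := by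
  by_contra hc
  have h1 : 2 ^ 729 ≤ 2 ^ i := Nat.pow_le_pow_right (by norm_num) (by omega)
  have := Nat.testBit_lt_two_pow (Nat.lt_of_lt_of_le hU h1)
  rw [this] at h
  exact Bool.noConfusion h

theorem image_maskSet_subset (s1 s2 sw : Bool) {Z : ℕ} (hZ : Z < 2 ^ 729) :
    gMap s1 s2 sw '' maskSet Z ⊆ maskSet (imgMask s1 s2 sw Z) := by
  rintro _ ⟨_, ⟨i, hi, rfl⟩, rfl⟩
  have hlt := testBit_lt hZ hi
  rw [show gMap s1 s2 sw (cellOf i) = cellOf (gIdx s1 s2 sw i) from gIdx_ok s1 s2 sw ⟨i, hlt⟩]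
  exact ⟨_, imgGo_spec s1 s2 sw Z 729 0 i hlt hi, rfl⟩

end Crest.Agent.SnakyCert
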